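import Vale.Agent.P331.Swap

/-!
# The averaged pointwise inequality
-/

open MeasureTheory Finset
open scoped NNReal ENNReal

namespace Vale.Agent.P331

variable {E : Type} [Fintype E] [DecidableEq E] (M : Matroid E)

omit [DecidableEq E] in
lemma optV_eq_zero_of_no_nonloops (h : nonloops M = ∅) (ω : E → ℝ≥0 × ℝ≥0) : optV M ω = 0 := by
  unfold optV opt
  apply le_antisymm _ zero_le
  apply iSup₂_le
  intro I hI
  have : I = ∅ := by
    rw [eq_empty_iff_forall_notMem]
    intro e he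
    have := mem_nonloops_of_indep M hI he
    rw [h] at this
    simp at this
  simp [this]

/-- bound for the sum of the top value over the coin flips of the other elements. -/
lemma top_sum_le (m : ℕ) (hm : 1 ≤ m) (ω : E → ℝ≥0 × ℝ≥0) (hω : ∀ e, (ω e).2 ≤ (ω e).1) (e1 : E)
    (h1 : e1 ∈ nonloops M) (hmax : ∀ e ∈ nonloops M, (ω e).1 ≤ (ω e1).1) :
    ∑ _B ∈ ((univ : Finset E).erase e1).powerset, ((ω e1).1 : ℝ≥0∞)
      ≤ 4 * ∑ B ∈ ((univ : Finset E).erase e1).powerset, Wtot M m (swapAt (insert e1 B) ω) := by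
  rcases ((nonloops M).erase e1).eq_empty_or_nonempty with hN | hN
  · rw [mul_sum]
    apply sum_le_sum
    intro B _
    have h := claim2 M m hm ω hω e1 h1 hmax (insert e1 B) (mem_insert_self _ _) (by
      intro e he hne
      have : e ∈ (nonloops M).erase e1 := mem_erase.mpr ⟨hne, he⟩
      rw [hN] at this
      simp at this)
    refine le_trans h ?_
    gcongr
    norm_num
  · obtain ⟨e2, he2, hmax2⟩ := ((nonloops M).erase e1).exists_max_image (fun e => (ω e).1) hN
    have he21 : e2 ≠ e1 := (mem_erase.mp he2).1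
    have he2N : e2 ∈ nonloops M := (mem_erase.mp he2).2
    have hU : (univ : Finset E).erase e1 = insert e2 (((univ : Finset E).erase e1).erase e2) := by
      rw [insert_erase]
      exact mem_erase.mpr ⟨he21, mem_univ _⟩
    set U2 := ((univ : Finset E).erase e1).erase e2 with hU2
    have hnot : e2 ∉ U2 := notMem_erase _ _
    rw [hU, sum_powerset_insert hnot, sum_powerset_insert hnot]
    have key : ∀ B ∈ U2.powerset, ((ω e1).1 : ℝ≥0∞) ≤ 2 * Wtot M m (swapAt (insert e1 B) ω) := by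
      intro B hB
      rw [mem_powerset] at hB
      have he2B : e2 ∉ insert e1 B := by
        rw [mem_insert, not_or]
        exact ⟨he21, fun h => hnot (hB h)⟩
      apply claim2 M m hm ω hω e1 h1 hmax (insert e1 B) (mem_insert_self _ _)
      intro e he hne
      have h3 : (ω e).1 ≤ (ω e2).1 := hmax2 e (mem_erase.mpr ⟨hne, he⟩)
      have h4 := le_topS M (fun e => (swapAt (insert e1 B) ω e).1) e2 he2N
      have h5 : (swapAt (insert e1 B) ω e2).1 = (ω e2).1 := by
        unfold swapAt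
        rw [if_neg he2B]
      simp only [h5] at h4
      exact le_trans (swapAt_snd_le _ ω hω e) (le_trans h3 h4)
    calc ∑ _B ∈ U2.powerset, ((ω e1).1 : ℝ≥0∞) + ∑ _B ∈ U2.powerset, ((ω e1).1 : ℝ≥0∞)
        ≤ ∑ B ∈ U2.powerset, 2 * Wtot M m (swapAt (insert e1 B) ω)
          + ∑ B ∈ U2.powerset, 2 * Wtot M m (swapAt (insert e1 B) ω) :=
          add_le_add (sum_le_sum key) (sum_le_sum key)
      _ = 4 * ∑ B ∈ U2.powerset, Wtot M m (swapAt (insert e1 B) ω) := by
          rw [← mul_sum]; ring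
      _ ≤ _ := by
          gcongr
          exact le_self_add

/-- the averaged inequality when every pair is sorted (sample slot holds the larger number). -/
lemma sorted_ineq (r m : ℕ) (hr : ∀ I : Finset E, M.Indep (I : Set E) → I.card ≤ r)
    (hrm : r ≤ 2 ^ m) (hm : 1 ≤ m) (ω : E → ℝ≥0 × ℝ≥0) (hω : ∀ e, (ω e).2 ≤ (ω e).1) :
    ∑ B ∈ (univ : Finset E).powerset, optV M (swapAt B ω)
      ≤ 12 * ∑ B ∈ (univ : Finset E).powerset, Wtot M m (swapAt B ω) := by
  rcases (nonloops M).eq_empty_or_nonempty with hN | hN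
  · simp [optV_eq_zero_of_no_nonloops M hN]
  obtain ⟨e1, h1, hmax⟩ := (nonloops M).exists_max_image (fun e => (ω e).1) hN
  have hU : (univ : Finset E) = insert e1 ((univ : Finset E).erase e1) :=
    (insert_erase (mem_univ e1)).symm
  set U1 := (univ : Finset E).erase e1 with hU1
  have hnot : e1 ∉ U1 := notMem_erase _ _
  rw [hU, sum_powerset_insert hnot, sum_powerset_insert hnot]
  set Z : ℝ≥0∞ := ((ω e1).1 : ℝ≥0∞) with hZ
  have hA : ∀ B ∈ U1.powerset, optV M (swapAt B ω) ≤ 2 * Wtot M m (swapAt B ω) + Z := by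
    intro B hB
    rw [mem_powerset] at hB
    exact claim1 M r m hr hrm ω hω e1 h1 hmax B (fun h => hnot (hB h))
  have hB' : ∀ B ∈ U1.powerset, optV M (swapAt (insert e1 B) ω)
      ≤ (2 * Wtot M m (swapAt B ω) + Z) + Z := by
    intro B hB
    have h := hA B hB
    rw [mem_powerset] at hB
    refine le_trans (claim3 M ω e1 B (fun h => hnot (hB h))) ?_
    gcongr
  have hZsum := top_sum_le M m hm ω hω e1 h1 hmax
  rw [← hU1, ← hZ] at hZsum
  calc ∑ B ∈ U1.powerset, optV M (swapAt B ω) + ∑ B ∈ U1.powerset, optV M (swapAt (insert e1 B) ω)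
      ≤ ∑ B ∈ U1.powerset, (2 * Wtot M m (swapAt B ω) + Z)
        + ∑ B ∈ U1.powerset, ((2 * Wtot M m (swapAt B ω) + Z) + Z) :=
        add_le_add (sum_le_sum hA) (sum_le_sum hB')
    _ = 4 * ∑ B ∈ U1.powerset, Wtot M m (swapAt B ω) + 3 * ∑ _B ∈ U1.powerset, Z := by
        simp only [sum_add_distrib, ← mul_sum]; ring
    _ ≤ 4 * ∑ B ∈ U1.powerset, Wtot M m (swapAt B ω)
        + 3 * (4 * ∑ B ∈ U1.powerset, Wtot M m (swapAt (insert e1 B) ω)) := by gcongr
    _ ≤ 12 * (∑ B ∈ U1.powerset, Wtot M m (swapAt B ω)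
        + ∑ B ∈ U1.powerset, Wtot M m (swapAt (insert e1 B) ω)) := by
        rw [mul_add, ← mul_assoc]
        gcongr <;> norm_num

omit [Fintype E] in
lemma swapAt_swapAt (B B0 : Finset E) (ω : E → ℝ≥0 × ℝ≥0) :
    swapAt B (swapAt B0 ω) = swapAt (symmDiff B B0) ω := by
  funext e
  unfold swapAt
  by_cases h1 : e ∈ B <;> by_cases h2 : e ∈ B0 <;> simp [h1, h2, mem_symmDiff]

lemma sum_swapAt_swapAt (f : (E → ℝ≥0 × ℝ≥0) → ℝ≥0∞) (B0 : Finset E) (ω : E → ℝ≥0 × ℝ≥0) :
    ∑ B ∈ (univ : Finset E).powerset, f (swapAt B (swapAt B0 ω))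
      = ∑ B ∈ (univ : Finset E).powerset, f (swapAt B ω) := by
  simp only [swapAt_swapAt]
  apply sum_nbij' (fun B => symmDiff B B0) (fun B => symmDiff B B0)
  · intro B _; simp
  · intro B _; simp
  · intro B _; simp
  · intro B _; simp
  · intro B _; rfl

/-- the averaged inequality for arbitrary pairs. -/
theorem averaged_ineq (r m : ℕ) (hr : ∀ I : Finset E, M.Indep (I : Set E) → I.card ≤ r)
    (hrm : r ≤ 2 ^ m) (hm : 1 ≤ m) (ω : E → ℝ≥0 × ℝ≥0) :
    ∑ B ∈ (univ : Finset E).powerset, optV M (swapAt B ω)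
      ≤ 12 * ∑ B ∈ (univ : Finset E).powerset, Wtot M m (swapAt B ω) := by
  set B0 : Finset E := univ.filter (fun e => (ω e).1 < (ω e).2) with hB0
  have hs : ∀ e, (swapAt B0 ω e).2 ≤ (swapAt B0 ω e).1 := by
    intro e
    unfold swapAt
    by_cases h : (ω e).1 < (ω e).2
    · have : e ∈ B0 := by simp [hB0, h]
      simp [this, h.le]
    · have : e ∉ B0 := by simp [hB0, h]
      simp [this, not_lt.mp h]
  have h := sorted_ineq M r m hr hrm hm (swapAt B0 ω) hs
  rwa [sum_swapAt_swapAt, sum_swapAt_swapAt] at h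

end Vale.Agent.P331
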