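import Vale.Agent.P331.Integrate

/-!
# Competitiveness of the random dyadic threshold rule
-/

open MeasureTheory Finset
open scoped NNReal ENNReal

namespace Vale.Agent.P331

variable {E : Type} [Fintype E] [DecidableEq E] (M : Matroid E)

/-- the uniform law on the `m + 1` seeds. -/
noncomputable def unifSeed (m : ℕ) : Measure (Fin (m + 1)) :=
  ((m : ℝ≥0∞) + 1)⁻¹ • Measure.count

instance unifSeed_prob (m : ℕ) : IsProbabilityMeasure (unifSeed m) := by
  constructor
  unfold unifSeed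
  rw [Measure.smul_apply, Measure.count_univ]
  simp only [ENat.card_eq_coe_fintype_card, Fintype.card_fin, smul_eq_mul]
  push_cast
  apply ENNReal.inv_mul_cancel
  · simp
  · exact ENNReal.add_ne_top.mpr ⟨ENNReal.natCast_ne_top _, ENNReal.one_ne_top⟩

theorem threshRule_competitive (r m : ℕ)
    (hr : ∀ I : Finset E, M.Indep (I : Set E) → I.card ≤ r) (hrm : r ≤ 2 ^ m) (hm : 1 ≤ m) :
    (threshRule M m).Competitive (unifSeed m) M (1 / (12 * ((m : ℝ≥0∞) + 1))) := by
  intro D hD π hπ _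
  haveI := hD
  set μ := jointLaw D with hμ
  set f : Fin (m + 1) × (E → ℝ≥0 × ℝ≥0) → ℝ≥0∞ :=
    fun x => worst M x.1 (fun e => (x.2 e).1) (fun e => (x.2 e).2) with hf
  have hfm : Measurable f := measurable_from_prod_countable_right (fun j => measurable_worst M j)
  have lower : ∫⁻ x, f x ∂((unifSeed m).prod μ) ≤
      ∫⁻ x, ∑ e ∈ (threshRule M m).accepted x.1 (fun e => (x.2 e).1) (fun e => (x.2 e).2)
        (π x).reverse, (((x.2 e).2 : ℝ≥0) : ℝ≥0∞) ∂((unifSeed m).prod μ) := by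
    apply lintegral_mono
    intro x
    simp only [accepted_eq]
    exact iInf_le (fun l : {l : List E // ∀ e, e ∈ l} =>
      alg M x.1 (fun e => (x.2 e).1) (fun e => (x.2 e).2) l.1)
      ⟨(π x).reverse, fun e => List.mem_reverse.mpr ((hπ x).2 e)⟩
  have compute : ∫⁻ x, f x ∂((unifSeed m).prod μ)
      = ((m : ℝ≥0∞) + 1)⁻¹ * ∫⁻ ω, Wtot M m ω ∂μ := by
    rw [lintegral_prod _ hfm.aemeasurable]
    unfold unifSeed
    rw [lintegral_smul_measure, lintegral_count, tsum_fintype, smul_eq_mul]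
    congr 1
    unfold Wtot
    rw [lintegral_finsetSum _ (fun j _ => measurable_worst M j)]
    exact Fin.sum_univ_eq_sum_range
      (fun j => ∫⁻ ω, worst M j (fun e => (ω e).1) (fun e => (ω e).2) ∂μ) (m + 1)
  have hopt := lintegral_optV_le M r m hr hrm hm D
  refine le_trans ?_ lower
  rw [compute]
  have ha0 : ((m : ℝ≥0∞) + 1) ≠ 0 := by simp
  have hat : ((m : ℝ≥0∞) + 1) ≠ ⊤ :=
    ENNReal.add_ne_top.mpr ⟨ENNReal.natCast_ne_top _, ENNReal.one_ne_top⟩
  calc 1 / (12 * ((m : ℝ≥0∞) + 1)) * ∫⁻ ω, opt M (fun e => (ω e).2) ∂μ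
      ≤ 1 / (12 * ((m : ℝ≥0∞) + 1)) * (12 * ∫⁻ ω, Wtot M m ω ∂μ) := by
        gcongr
        exact hopt
    _ = ((m : ℝ≥0∞) + 1)⁻¹ * ∫⁻ ω, Wtot M m ω ∂μ := by
        rw [one_div, ENNReal.mul_inv (Or.inl (by norm_num)) (Or.inl (by norm_num)), ← mul_assoc]
        congr 1
        rw [mul_comm (12 : ℝ≥0∞)⁻¹, mul_assoc, ENNReal.inv_mul_cancel (by norm_num) (by norm_num),
          mul_one]

/-- Main theorem: every finite matroid of rank at most `r` admits a single-sample rule that is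
`1 / (12 (⌈log₂ r⌉ + 2))`-competitive against the almighty adversary. -/
theorem main (r : ℕ) (hr : M.eRank ≤ r) :
    ∃ (Ω : Type) (_ : MeasurableSpace Ω) (ν : Measure Ω) (ρ : Rule E Ω),
      IsProbabilityMeasure ν ∧ ρ.IsMeasurable ∧ ρ.Feasible M ∧
        ρ.Competitive ν M (1 / (12 * ((Nat.clog 2 r : ℝ≥0∞) + 2))) := by
  refine ⟨Fin (Nat.clog 2 r + 1 + 1), inferInstance, unifSeed (Nat.clog 2 r + 1),
    threshRule M (Nat.clog 2 r + 1), inferInstance, threshRule_measurable M _,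
    threshRule_feasible M _, ?_⟩
  have h := threshRule_competitive M r (Nat.clog 2 r + 1) (by
      intro I hI
      have h1 := hI.encard_le_eRank
      rw [Set.encard_coe_eq_coe_finsetCard] at h1
      exact_mod_cast le_trans h1 hr)
    (le_trans (Nat.le_pow_clog (by norm_num) r) (Nat.pow_le_pow_right (by norm_num) (by omega)))
    (by omega)
  have e : (((Nat.clog 2 r + 1 : ℕ) : ℝ≥0∞) + 1) = (Nat.clog 2 r : ℝ≥0∞) + 2 := by
    push_cast
    ring
  rwa [e] at h

end Vale.Agent.P331
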