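import Vale.Agent.P331.Model

/-!
# Greedy selection among eligible elements
-/

open scoped NNReal ENNReal

namespace Vale.Agent.P331

variable {E : Type} [DecidableEq E]

open Classical in
/-- greedy independent subset of the eligible elements of `l` (latest arrival first). -/
noncomputable def greedy (M : Matroid E) (P : E → Prop) : List E → Finset E
  | [] => ∅
  | e :: l =>
      if P e ∧ M.Indep (insert e (greedy M P l) : Finset E) then insert e (greedy M P l)
      else greedy M P l

lemma greedy_indep (M : Matroid E) (P : E → Prop) (l : List E) :
    M.Indep (greedy M P l : Set E) := by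
  induction l with
  | nil => simp [greedy]
  | cons e l ih =>
    unfold greedy
    split_ifs with h
    · exact h.2
    · exact ih

lemma greedy_mem (M : Matroid E) (P : E → Prop) (l : List E) :
    ∀ e ∈ greedy M P l, P e ∧ e ∈ l := by
  induction l with
  | nil => simp [greedy]
  | cons a l ih =>
    intro e he
    unfold greedy at he
    split_ifs at he with h
    · rcases Finset.mem_insert.mp he with rfl | he
      · exact ⟨h.1, by simp⟩
      · exact ⟨(ih e he).1, by simp [(ih e he).2]⟩
    · exact ⟨(ih e he).1, by simp [(ih e he).2]⟩

lemma greedy_subset_cons (M : Matroid E) (P : E → Prop) (a : E) (l : List E) :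
    greedy M P l ⊆ greedy M P (a :: l) := by
  conv_rhs => unfold greedy
  split_ifs
  · exact Finset.subset_insert _ _
  · exact Finset.Subset.refl _

lemma greedy_max (M : Matroid E) (P : E → Prop) (l : List E) :
    ∀ e ∈ l, P e → e ∉ greedy M P l → ¬ M.Indep (insert e (greedy M P l) : Finset E) := by
  induction l with
  | nil => simp
  | cons a l ih =>
    intro e he hP hnot hind
    have hsub := greedy_subset_cons M P a l
    have hnot' : e ∉ greedy M P l := fun h => hnot (hsub h)
    have hind' : M.Indep (insert e (greedy M P l) : Finset E) := by
      apply hind.subset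
      exact_mod_cast Finset.insert_subset_insert e hsub
    rcases List.mem_cons.mp he with rfl | he
    · apply hnot
      unfold greedy
      rw [if_pos ⟨hP, hind'⟩]
      exact Finset.mem_insert_self _ _
    · exact ih e he hP hnot' hind'

/-- the greedy set is at least as large as any independent set of eligible arrived elements. -/
lemma greedy_card (M : Matroid E) (P : E → Prop) (l : List E) (I : Finset E)
    (hI : M.Indep (I : Set E)) (hIP : ∀ e ∈ I, P e ∧ e ∈ l) :
    I.card ≤ (greedy M P l).card := by
  by_contra hlt
  push Not at hlt
  obtain ⟨e, heI, heG, hind⟩ := (greedy_indep M P l).augment_finset hI hlt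
  exact greedy_max M P l e (hIP e heI).2 (hIP e heI).1 heG (by exact_mod_cast hind)

lemma greedy_congr (M : Matroid E) (P P' : E → Prop) (l : List E)
    (h : ∀ e ∈ l, (P e ↔ P' e)) : greedy M P l = greedy M P' l := by
  induction l with
  | nil => simp [greedy]
  | cons a l ih =>
    have ih' := ih (fun e he => h e (by simp [he]))
    unfold greedy
    rw [ih', h a (by simp)]

end Vale.Agent.P331
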