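import Vale.Agent.P331.Average

/-!
# Integration: from the averaged pointwise inequality to competitiveness
-/

open MeasureTheory Finset
open scoped NNReal ENNReal

namespace Vale.Agent.P331

variable {E : Type} [Fintype E] [DecidableEq E] (M : Matroid E)

omit [DecidableEq E] in
lemma measurable_optV : Measurable (optV M) := by
  unfold optV opt
  apply Measurable.iSup
  intro I
  apply Measurable.iSup_Prop
  apply Finset.measurable_sum
  intro e _
  exact measurable_coe_nnreal_ennreal.comp (measurable_snd.comp (measurable_pi_apply e))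

lemma measurable_alg (j : ℕ) (l : List E) :
    Measurable (fun ω : E → ℝ≥0 × ℝ≥0 => alg M j (fun e => (ω e).1) (fun e => (ω e).2) l) := by
  classical
  unfold alg
  have : ∀ ω : E → ℝ≥0 × ℝ≥0,
      ∑ e ∈ greedy M (fun e => elig M j (fun e => (ω e).1) ((ω e).2)) l, (((ω e).2 : ℝ≥0) : ℝ≥0∞)
      = ∑ e : E, if e ∈ greedy M (fun e => elig M j (fun e => (ω e).1) ((ω e).2)) l
          then (((ω e).2 : ℝ≥0) : ℝ≥0∞) else 0 := by
    intro ω
    rw [← sum_filter]
    apply sum_congr
    · ext e; simp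
    · intro e _; rfl
  simp only [this]
  apply Finset.measurable_sum
  intro e _
  apply Measurable.ite
  · have h := measurable_of_finite_pred
      (fun (ω : E → ℝ≥0 × ℝ≥0) e' => elig M j (fun e => (ω e).1) ((ω e').2))
      (fun e' => measurableSet_elig M j _ _
        (measurable_pi_iff.mpr (fun e => measurable_fst.comp (measurable_pi_apply e)))
        (measurable_snd.comp (measurable_pi_apply e')))
      (fun p => e ∈ greedy M p l)
    exact measurableSet_setOfPred.mpr h
  · exact measurable_coe_nnreal_ennreal.comp (measurable_snd.comp (measurable_pi_apply e))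
  · exact measurable_const

lemma measurable_worst (j : ℕ) :
    Measurable (fun ω : E → ℝ≥0 × ℝ≥0 => worst M j (fun e => (ω e).1) (fun e => (ω e).2)) := by
  unfold worst
  apply Measurable.iInf
  intro l
  exact measurable_alg M j l.1

lemma measurable_Wtot (m : ℕ) : Measurable (Wtot M m) := by
  unfold Wtot
  apply Finset.measurable_sum
  intro j _
  exact measurable_worst M j

instance jointLaw_prob (D : E → Measure ℝ≥0) [∀ e, IsProbabilityMeasure (D e)] :
    IsProbabilityMeasure (jointLaw D) := by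
  unfold jointLaw
  infer_instance

lemma measurePreserving_swapAt (D : E → Measure ℝ≥0) [∀ e, IsProbabilityMeasure (D e)]
    (B : Finset E) : MeasurePreserving (swapAt B) (jointLaw D) (jointLaw D) := by
  unfold jointLaw
  have h := measurePreserving_pi (fun e => (D e).prod (D e)) (fun e => (D e).prod (D e))
    (f := fun e => if e ∈ B then Prod.swap else id) (by
      intro e
      by_cases he : e ∈ B
      · simp only [he, if_true]
        exact Measure.measurePreserving_swap
      · simp only [he, if_false]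
        exact MeasurePreserving.id _)
  have heq : swapAt B = (fun (a : E → ℝ≥0 × ℝ≥0) e => (if e ∈ B then Prod.swap else id) (a e)) := by
    funext a e
    unfold swapAt
    split_ifs <;> rfl
  rw [heq]
  exact h

/-- expected optimum is at most twelve times the expected total worst-case value. -/
theorem lintegral_optV_le (r m : ℕ) (hr : ∀ I : Finset E, M.Indep (I : Set E) → I.card ≤ r)
    (hrm : r ≤ 2 ^ m) (hm : 1 ≤ m) (D : E → Measure ℝ≥0) [∀ e, IsProbabilityMeasure (D e)] :
    ∫⁻ ω, optV M ω ∂(jointLaw D) ≤ 12 * ∫⁻ ω, Wtot M m ω ∂(jointLaw D) := by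
  set μ := jointLaw D with hμ
  set P := (univ : Finset E).powerset with hP
  have h1 : ∀ B ∈ P, ∫⁻ ω, optV M (swapAt B ω) ∂μ = ∫⁻ ω, optV M ω ∂μ := fun B _ =>
    (measurePreserving_swapAt D B).lintegral_comp (measurable_optV M)
  have h2 : ∀ B ∈ P, ∫⁻ ω, Wtot M m (swapAt B ω) ∂μ = ∫⁻ ω, Wtot M m ω ∂μ := fun B _ =>
    (measurePreserving_swapAt D B).lintegral_comp (measurable_Wtot M m)
  have h3 : ∫⁻ ω, ∑ B ∈ P, optV M (swapAt B ω) ∂μ = (P.card : ℝ≥0∞) * ∫⁻ ω, optV M ω ∂μ := by
    have hm' : ∀ B ∈ P, Measurable (fun ω => optV M (swapAt B ω)) := fun B _ =>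
      (measurable_optV M).comp (measurePreserving_swapAt D B).measurable
    rw [lintegral_finsetSum _ hm', sum_congr rfl h1, sum_const, nsmul_eq_mul]
  have h4 : ∫⁻ ω, ∑ B ∈ P, Wtot M m (swapAt B ω) ∂μ = (P.card : ℝ≥0∞) * ∫⁻ ω, Wtot M m ω ∂μ := by
    have hm' : ∀ B ∈ P, Measurable (fun ω => Wtot M m (swapAt B ω)) := fun B _ =>
      (measurable_Wtot M m).comp (measurePreserving_swapAt D B).measurable
    rw [lintegral_finsetSum _ hm', sum_congr rfl h2, sum_const, nsmul_eq_mul]
  have h5 : ∫⁻ ω, ∑ B ∈ P, optV M (swapAt B ω) ∂μ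
      ≤ 12 * ∫⁻ ω, ∑ B ∈ P, Wtot M m (swapAt B ω) ∂μ := by
    rw [← lintegral_const_mul' _ _ (by norm_num)]
    exact lintegral_mono (fun ω => averaged_ineq M r m hr hrm hm ω)
  rw [h3, h4] at h5
  have hc0 : (P.card : ℝ≥0∞) ≠ 0 := by
    rw [hP, card_powerset]
    simp
  have hct : (P.card : ℝ≥0∞) ≠ ⊤ := ENNReal.natCast_ne_top _
  have h6 : (P.card : ℝ≥0∞) * ∫⁻ ω, optV M ω ∂μ
      ≤ (P.card : ℝ≥0∞) * (12 * ∫⁻ ω, Wtot M m ω ∂μ) := by
    calc _ ≤ 12 * ((P.card : ℝ≥0∞) * ∫⁻ ω, Wtot M m ω ∂μ) := h5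
      _ = _ := by ring
  exact (ENNReal.mul_le_mul_iff_right hc0 hct).mp h6

end Vale.Agent.P331
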