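import Mathlib

/-!
# P331: the single-sample matroid prophet model with an almighty adversary
-/

open MeasureTheory
open scoped NNReal ENNReal

namespace Vale.Agent.P331

variable {E Ω : Type}

/-- The values revealed so far: `v` on the arrived elements `l`, and `0` elsewhere. -/
def mask [DecidableEq E] (v : E → ℝ≥0) (l : List E) : E → ℝ≥0 :=
  fun e => if e ∈ l then v e else 0

/-- An online rule with seed space `Ω`.  `acc r s l u` is the irrevocable decision about the
element at the head of `l`, where `r` is the seed, `s` the vector of samples, `l` the list of the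
elements that have arrived so far (latest arrival first) and `u` the vector of their values
(`0` at the elements that have not arrived). -/
structure Rule (E Ω : Type) where
  acc : Ω → (E → ℝ≥0) → List E → (E → ℝ≥0) → Bool

/-- The set accepted by the rule after the arrivals `l` (latest arrival first), when the
seed is `r`, the samples are `s` and the true values are `v`. -/
def Rule.accepted [DecidableEq E] (ρ : Rule E Ω) (r : Ω) (s v : E → ℝ≥0) : List E → Finset E
  | [] => ∅
  | e :: l =>
      if ρ.acc r s (e :: l) (mask v (e :: l)) = true then insert e (ρ.accepted r s v l)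
      else ρ.accepted r s v l

/-- The rule always keeps its accepted set independent. -/
def Rule.Feasible [DecidableEq E] (ρ : Rule E Ω) (M : Matroid E) : Prop :=
  ∀ r s v l, M.Indep (ρ.accepted r s v l : Set E)

/-- Every decision is a measurable function of seed, samples and revealed values. -/
def Rule.IsMeasurable [MeasurableSpace Ω] (ρ : Rule E Ω) : Prop :=
  ∀ l : List E, Measurable (fun x : Ω × (E → ℝ≥0) × (E → ℝ≥0) => ρ.acc x.1 x.2.1 l x.2.2)

/-- The offline optimum: maximum total value of an independent set. -/
noncomputable def opt (M : Matroid E) (v : E → ℝ≥0) : ℝ≥0∞ :=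
  ⨆ (I : Finset E) (_ : M.Indep (I : Set E)), ∑ e ∈ I, (v e : ℝ≥0∞)

/-- An arrival order: every element exactly once (first arrival first). -/
def IsOrder (o : List E) : Prop := o.Nodup ∧ ∀ e, e ∈ o

/-- Joint law of the pairs `(S e, V e)`: all `2 |E|` coordinates independent, `S e, V e ∼ D e`. -/
noncomputable def jointLaw [Fintype E] (D : E → Measure ℝ≥0) : Measure (E → ℝ≥0 × ℝ≥0) :=
  Measure.pi (fun e => (D e).prod (D e))

/-- `ρ` (with seed law `ν`) is `c`-competitive on `M` against the almighty adversary: for all
laws `D e` on `[0,∞)` and every measurable choice of the arrival order as a function of the seed,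
all samples and all values, the expected accepted value is at least `c` times the expected
offline optimum. -/
def Rule.Competitive [Fintype E] [DecidableEq E] [MeasurableSpace Ω] (ρ : Rule E Ω)
    (ν : Measure Ω) (M : Matroid E) (c : ℝ≥0∞) : Prop :=
  ∀ D : E → Measure ℝ≥0, (∀ e, IsProbabilityMeasure (D e)) →
  ∀ π : Ω × (E → ℝ≥0 × ℝ≥0) → List E, (∀ x, IsOrder (π x)) →
    (∀ o : List E, MeasurableSet (π ⁻¹' {o})) →
    c * ∫⁻ ω, opt M (fun e => (ω e).2) ∂(jointLaw D) ≤
      ∫⁻ x, ∑ e ∈ ρ.accepted x.1 (fun e => (x.2 e).1) (fun e => (x.2 e).2) (π x).reverse,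
        (((x.2 e).2 : ℝ≥0) : ℝ≥0∞) ∂(ν.prod (jointLaw D))

end Vale.Agent.P331
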