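import Vale.Agent.P331.Thresh

/-!
# Pointwise (order-free) bounds for the threshold rule
-/

open MeasureTheory Finset
open scoped NNReal ENNReal

namespace Vale.Agent.P331

variable {E : Type} [Fintype E] [DecidableEq E] (M : Matroid E)

/-- value collected at level `j` when the arrivals are `l` (latest first). -/
noncomputable def alg (j : ℕ) (s v : E → ℝ≥0) (l : List E) : ℝ≥0∞ :=
  ∑ e ∈ greedy M (fun e => elig M j s (v e)) l, (v e : ℝ≥0∞)

/-- worst case of `alg` over all complete arrival lists. -/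
noncomputable def worst (j : ℕ) (s v : E → ℝ≥0) : ℝ≥0∞ :=
  ⨅ l : {l : List E // ∀ e, e ∈ l}, alg M j s v l.1

omit [DecidableEq E] in
lemma mem_nonloops {e : E} : e ∈ nonloops M ↔ M.Indep {e} := by
  classical
  simp [nonloops]

omit [DecidableEq E] in
lemma mem_nonloops_of_indep {I : Finset E} (hI : M.Indep (I : Set E)) {e : E} (he : e ∈ I) :
    e ∈ nonloops M := by
  rw [mem_nonloops]
  exact hI.subset (by simpa using he)

/-- levels `j ≥ 1`: threshold times the number of eligible elements of any independent set. -/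
lemma level_le_worst (j : ℕ) (hj : j ≠ 0) (s v : E → ℝ≥0) (I : Finset E)
    (hI : M.Indep (I : Set E)) :
    ((topS M s / 2 ^ j : ℝ≥0) : ℝ≥0∞) * ((I.filter (fun e => topS M s / 2 ^ j ≤ v e)).card : ℝ≥0∞)
      ≤ worst M j s v := by
  apply le_iInf
  rintro ⟨l, hl⟩
  set t : ℝ≥0 := topS M s / 2 ^ j with ht
  set G := greedy M (fun e => elig M j s (v e)) l with hG
  have hcard : (I.filter (fun e => t ≤ v e)).card ≤ G.card := by
    apply greedy_card
    · exact hI.subset (by exact_mod_cast filter_subset _ _)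
    · intro e he
      refine ⟨?_, hl e⟩
      simp only [elig, hj, if_false]
      exact (mem_filter.mp he).2
  have hge : ∀ e ∈ G, (t : ℝ≥0∞) ≤ (v e : ℝ≥0∞) := by
    intro e he
    have := (greedy_mem M _ l e he).1
    simp only [elig, hj, if_false] at this
    exact ENNReal.coe_le_coe.mpr this
  calc (t : ℝ≥0∞) * ((I.filter (fun e => t ≤ v e)).card : ℝ≥0∞)
      ≤ (t : ℝ≥0∞) * (G.card : ℝ≥0∞) := by gcongr
    _ = ∑ _e ∈ G, (t : ℝ≥0∞) := by rw [sum_const, nsmul_eq_mul, mul_comm]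
    _ ≤ ∑ e ∈ G, (v e : ℝ≥0∞) := sum_le_sum hge

/-- level `0`: if a single non-loop beats all samples, it is collected. -/
lemma top_le_worst (s v : E → ℝ≥0) (e1 : E) (h1 : e1 ∈ nonloops M) (hv : topS M s < v e1)
    (hothers : ∀ e ∈ nonloops M, e ≠ e1 → v e ≤ topS M s) :
    (v e1 : ℝ≥0∞) ≤ worst M 0 s v := by
  apply le_iInf
  rintro ⟨l, hl⟩
  set G := greedy M (fun e => elig M 0 s (v e)) l with hG
  have hsub : ∀ e ∈ G, e = e1 := by
    intro e he
    by_contra hne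
    have h2 := (greedy_mem M _ l e he).1
    simp only [elig, if_true] at h2
    have h3 := hothers e (mem_nonloops_of_indep M (greedy_indep M _ l) he) hne
    exact absurd h2 (not_lt.mpr h3)
  have hmem : e1 ∈ G := by
    by_contra hnot
    have hGe : G = ∅ := by
      rw [eq_empty_iff_forall_notMem]
      intro e he
      exact hnot (hsub e he ▸ he)
    apply greedy_max M _ l e1 (hl e1) (by simp only [elig, if_true]; exact hv) hnot
    rw [← hG, hGe]
    simpa using (mem_nonloops M).mp h1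
  exact single_le_sum (f := fun e => (v e : ℝ≥0∞)) (fun _ _ => zero_le) hmem

/-- dyadic decomposition of a number `x ≤ T`. -/
lemma dyadic_le (T x : ℝ≥0) (hx : x ≤ T) (m : ℕ) :
    x ≤ 2 * ∑ j ∈ Icc 1 m, (if T / 2 ^ j ≤ x then T / 2 ^ j else 0) + T / 2 ^ m := by
  induction m with
  | zero => simpa using hx
  | succ m ih =>
    rw [sum_Icc_succ_top (by omega)]
    have hhalf : T / 2 ^ m = 2 * (T / 2 ^ (m + 1)) := by
      rw [pow_succ]; field_simp
    by_cases h : T / 2 ^ (m + 1) ≤ x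
    · rw [if_pos h]
      calc x ≤ 2 * ∑ j ∈ Icc 1 m, (if T / 2 ^ j ≤ x then T / 2 ^ j else 0) + T / 2 ^ m := ih
        _ = 2 * ∑ j ∈ Icc 1 m, (if T / 2 ^ j ≤ x then T / 2 ^ j else 0)
            + 2 * (T / 2 ^ (m + 1)) := by rw [hhalf]
        _ ≤ 2 * (∑ j ∈ Icc 1 m, (if T / 2 ^ j ≤ x then T / 2 ^ j else 0) + T / 2 ^ (m + 1))
            + T / 2 ^ (m + 1) := by
              rw [mul_add]; exact le_self_add
    · exact le_trans (not_le.mp h).le le_add_self


/-- If all non-loop values are at most the top sample, the levels `1..m` capture the optimum. -/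
lemma opt_le_levels (r m : ℕ) (hr : ∀ I : Finset E, M.Indep (I : Set E) → I.card ≤ r)
    (hrm : r ≤ 2 ^ m) (s v : E → ℝ≥0) (hv : ∀ e ∈ nonloops M, v e ≤ topS M s) :
    opt M v ≤ 2 * ∑ j ∈ Icc 1 m, worst M j s v + (topS M s : ℝ≥0∞) := by
  unfold opt
  apply iSup₂_le
  intro I hI
  set T := topS M s with hT
  have h1 : ∀ e ∈ I, (v e : ℝ≥0∞) ≤
      2 * ∑ j ∈ Icc 1 m, (if T / 2 ^ j ≤ v e then ((T / 2 ^ j : ℝ≥0) : ℝ≥0∞) else 0)
        + ((T / 2 ^ m : ℝ≥0) : ℝ≥0∞) := by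
    intro e he
    have h := ENNReal.coe_le_coe.mpr (dyadic_le T (v e) (hv e (mem_nonloops_of_indep M hI he)) m)
    rw [ENNReal.coe_add, ENNReal.coe_mul, ENNReal.ofNNReal_finsetSum] at h
    refine le_trans h (le_of_eq ?_)
    congr 2
    apply sum_congr rfl
    intro j _
    split_ifs <;> simp
  have h2 : ∀ j ∈ Icc 1 m,
      ∑ e ∈ I, (if T / 2 ^ j ≤ v e then ((T / 2 ^ j : ℝ≥0) : ℝ≥0∞) else 0) ≤ worst M j s v := by
    intro j hj
    have hj0 : j ≠ 0 := by
      have := (mem_Icc.mp hj).1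
      omega
    refine le_trans (le_of_eq ?_) (level_le_worst M j hj0 s v I hI)
    rw [← sum_filter, sum_const, nsmul_eq_mul, mul_comm]
  have h3 : (I.card : ℝ≥0∞) * ((T / 2 ^ m : ℝ≥0) : ℝ≥0∞) ≤ (T : ℝ≥0∞) := by
    have hc : (I.card : ℝ≥0) ≤ 2 ^ m := by
      have := le_trans (hr I hI) hrm
      exact_mod_cast this
    have : (I.card : ℝ≥0) * (T / 2 ^ m) ≤ T := by
      calc (I.card : ℝ≥0) * (T / 2 ^ m) ≤ 2 ^ m * (T / 2 ^ m) := by gcongr
        _ = T := by field_simp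
    exact_mod_cast ENNReal.coe_le_coe.mpr this
  calc ∑ e ∈ I, (v e : ℝ≥0∞)
      ≤ ∑ e ∈ I, (2 * ∑ j ∈ Icc 1 m,
          (if T / 2 ^ j ≤ v e then ((T / 2 ^ j : ℝ≥0) : ℝ≥0∞) else 0)
          + ((T / 2 ^ m : ℝ≥0) : ℝ≥0∞)) := sum_le_sum h1
    _ = 2 * ∑ j ∈ Icc 1 m, ∑ e ∈ I,
          (if T / 2 ^ j ≤ v e then ((T / 2 ^ j : ℝ≥0) : ℝ≥0∞) else 0)
          + (I.card : ℝ≥0∞) * ((T / 2 ^ m : ℝ≥0) : ℝ≥0∞) := by
        rw [sum_add_distrib, ← mul_sum, sum_comm, sum_const, nsmul_eq_mul]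
    _ ≤ 2 * ∑ j ∈ Icc 1 m, worst M j s v + (T : ℝ≥0∞) := by
        gcongr with j hj
        exact h2 j hj

end Vale.Agent.P331
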