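import Vale.Agent.P331.Pointwise

/-!
# Averaging over the coin flips that exchange samples and values
-/

open MeasureTheory Finset
open scoped NNReal ENNReal

namespace Vale.Agent.P331

variable {E : Type} [Fintype E] [DecidableEq E] (M : Matroid E)

/-- exchange sample and value at the elements of `B`. -/
def swapAt (B : Finset E) (ω : E → ℝ≥0 × ℝ≥0) : E → ℝ≥0 × ℝ≥0 :=
  fun e => if e ∈ B then (ω e).swap else ω e

/-- total worst-case value over all levels. -/
noncomputable def Wtot (m : ℕ) (ω : E → ℝ≥0 × ℝ≥0) : ℝ≥0∞ :=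
  ∑ j ∈ range (m + 1), worst M j (fun e => (ω e).1) (fun e => (ω e).2)

/-- offline optimum of the values. -/
noncomputable def optV (ω : E → ℝ≥0 × ℝ≥0) : ℝ≥0∞ := opt M (fun e => (ω e).2)

omit [Fintype E] in
lemma swapAt_fst_le (B : Finset E) (ω : E → ℝ≥0 × ℝ≥0) (hω : ∀ e, (ω e).2 ≤ (ω e).1) (e : E) :
    (swapAt B ω e).1 ≤ (ω e).1 := by
  unfold swapAt
  split_ifs
  · exact hω e
  · exact le_rfl

omit [Fintype E] in
lemma swapAt_snd_le (B : Finset E) (ω : E → ℝ≥0 × ℝ≥0) (hω : ∀ e, (ω e).2 ≤ (ω e).1) (e : E) :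
    (swapAt B ω e).2 ≤ (ω e).1 := by
  unfold swapAt
  split_ifs
  · exact le_rfl
  · exact hω e

omit [DecidableEq E] in
lemma topS_le (s : E → ℝ≥0) (Z : ℝ≥0) (h : ∀ e ∈ nonloops M, s e ≤ Z) : topS M s ≤ Z :=
  Finset.sup_le h

omit [DecidableEq E] in
lemma le_topS (s : E → ℝ≥0) (e : E) (h : e ∈ nonloops M) : s e ≤ topS M s :=
  Finset.le_sup (f := s) h

lemma worst_le_Wtot (m j : ℕ) (hj : j ≤ m) (ω : E → ℝ≥0 × ℝ≥0) :
    worst M j (fun e => (ω e).1) (fun e => (ω e).2) ≤ Wtot M m ω :=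
  single_le_sum (f := fun j => worst M j (fun e => (ω e).1) (fun e => (ω e).2))
    (fun _ _ => zero_le) (mem_range.mpr (by omega))

lemma claim1 (r m : ℕ) (hr : ∀ I : Finset E, M.Indep (I : Set E) → I.card ≤ r)
    (hrm : r ≤ 2 ^ m) (ω : E → ℝ≥0 × ℝ≥0) (hω : ∀ e, (ω e).2 ≤ (ω e).1) (e1 : E)
    (h1 : e1 ∈ nonloops M) (hmax : ∀ e ∈ nonloops M, (ω e).1 ≤ (ω e1).1)
    (B : Finset E) (hB : e1 ∉ B) :
    optV M (swapAt B ω) ≤ 2 * Wtot M m (swapAt B ω) + ((ω e1).1 : ℝ≥0∞) := by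
  have htop : topS M (fun e => (swapAt B ω e).1) = (ω e1).1 := by
    apply le_antisymm
    · exact topS_le M _ _ (fun e he => le_trans (swapAt_fst_le B ω hω e) (hmax e he))
    · have := le_topS M (fun e => (swapAt B ω e).1) e1 h1
      simpa [swapAt, hB] using this
  have h := opt_le_levels M r m hr hrm (fun e => (swapAt B ω e).1) (fun e => (swapAt B ω e).2)
    (by
      intro e he
      rw [htop]
      exact le_trans (swapAt_snd_le B ω hω e) (hmax e he))
  rw [htop] at h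
  refine le_trans h ?_
  gcongr
  unfold Wtot
  apply sum_le_sum_of_subset
  intro j hj
  rw [mem_Icc] at hj
  rw [mem_range]
  omega

omit [Fintype E] in
lemma claim3 (ω : E → ℝ≥0 × ℝ≥0) (e1 : E) (B : Finset E) (hB : e1 ∉ B) :
    optV M (swapAt (insert e1 B) ω) ≤ optV M (swapAt B ω) + ((ω e1).1 : ℝ≥0∞) := by
  unfold optV opt
  apply iSup₂_le
  intro I hI
  have h1 : ∀ e ∈ I, (((swapAt (insert e1 B) ω e).2 : ℝ≥0) : ℝ≥0∞) ≤
      (((swapAt B ω e).2 : ℝ≥0) : ℝ≥0∞) + (if e = e1 then ((ω e1).1 : ℝ≥0∞) else 0) := by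
    intro e _
    by_cases he : e = e1
    · subst he
      simp [swapAt]
    · simp [swapAt, he]
  calc ∑ e ∈ I, (((swapAt (insert e1 B) ω e).2 : ℝ≥0) : ℝ≥0∞)
      ≤ ∑ e ∈ I, ((((swapAt B ω e).2 : ℝ≥0) : ℝ≥0∞)
          + (if e = e1 then ((ω e1).1 : ℝ≥0∞) else 0)) := sum_le_sum h1
    _ = ∑ e ∈ I, (((swapAt B ω e).2 : ℝ≥0) : ℝ≥0∞)
          + (if e1 ∈ I then ((ω e1).1 : ℝ≥0∞) else 0) := by
        rw [sum_add_distrib, sum_ite_eq']
    _ ≤ _ := by
        gcongr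
        · exact le_iSup₂ (f := fun (I : Finset E) (_ : M.Indep (I : Set E)) =>
            ∑ e ∈ I, (((swapAt B ω e).2 : ℝ≥0) : ℝ≥0∞)) I hI
        · split_ifs
          · exact le_rfl
          · exact zero_le

lemma claim2 (m : ℕ) (hm : 1 ≤ m) (ω : E → ℝ≥0 × ℝ≥0) (hω : ∀ e, (ω e).2 ≤ (ω e).1) (e1 : E)
    (h1 : e1 ∈ nonloops M) (hmax : ∀ e ∈ nonloops M, (ω e).1 ≤ (ω e1).1)
    (B : Finset E) (hB : e1 ∈ B)
    (hoth : ∀ e ∈ nonloops M, e ≠ e1 →
      (swapAt B ω e).2 ≤ topS M (fun e => (swapAt B ω e).1)) :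
    ((ω e1).1 : ℝ≥0∞) ≤ 2 * Wtot M m (swapAt B ω) := by
  set z := (ω e1).1 with hz
  set T := topS M (fun e => (swapAt B ω e).1) with hT
  have hv1 : (swapAt B ω e1).2 = z := by simp [swapAt, hB, hz]
  have hTz : T ≤ z :=
    topS_le M _ _ (fun e he => le_trans (swapAt_fst_le B ω hω e) (hmax e he))
  have hW : Wtot M m (swapAt B ω) ≤ 2 * Wtot M m (swapAt B ω) := by
    rw [two_mul]; exact le_self_add
  by_cases hlt : T < z
  · have := top_le_worst M (fun e => (swapAt B ω e).1) (fun e => (swapAt B ω e).2) e1 h1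
      (by simpa [hv1] using hlt) hoth
    simp only [hv1] at this
    exact le_trans this (le_trans (worst_le_Wtot M m 0 (by omega) _) hW)
  · have hTeq : T = z := le_antisymm hTz (not_lt.mp hlt)
    have h := level_le_worst M 1 (by norm_num) (fun e => (swapAt B ω e).1)
      (fun e => (swapAt B ω e).2) {e1} (by simpa using (mem_nonloops M).mp h1)
    rw [← hT, hTeq] at h
    have hf : ({e1} : Finset E).filter (fun e => z / 2 ^ 1 ≤ (swapAt B ω e).2) = {e1} := by
      apply filter_true_of_mem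
      intro e he
      rw [mem_singleton] at he
      subst he
      rw [hv1]
      exact NNReal.div_le_of_le_mul (by
        calc z = z * 1 := (mul_one z).symm
          _ ≤ z * 2 ^ 1 := by gcongr; norm_num)
    rw [hf] at h
    simp only [card_singleton, Nat.cast_one, mul_one] at h
    have h2 := le_trans h (worst_le_Wtot M m 1 hm _)
    have h3 : (z : ℝ≥0∞) = 2 * ((z / 2 ^ 1 : ℝ≥0) : ℝ≥0∞) := by
      have : z = 2 * (z / 2 ^ 1) := by field_simp
      conv_lhs => rw [this]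
      push_cast
      rfl
    rw [h3]
    gcongr

end Vale.Agent.P331
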