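import Vale.Agent.P331.Greedy

/-!
# The random dyadic threshold rule
-/

open MeasureTheory
open scoped NNReal ENNReal

namespace Vale.Agent.P331

variable {E : Type} [Fintype E] [DecidableEq E] (M : Matroid E)

open Classical in
/-- the set of non-loops. -/
noncomputable def nonloops : Finset E := Finset.univ.filter (fun e => M.Indep {e})

/-- the largest sample of a non-loop. -/
noncomputable def topS (s : E → ℝ≥0) : ℝ≥0 := (nonloops M).sup s

/-- eligibility of a value `x` at level `j`. -/
def elig (j : ℕ) (s : E → ℝ≥0) (x : ℝ≥0) : Prop :=
  if j = 0 then topS M s < x else topS M s / 2 ^ j ≤ x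

open Classical in
/-- the rule: the seed `j` fixes the threshold; accept greedily every eligible element. -/
noncomputable def threshRule (m : ℕ) : Rule E (Fin (m + 1)) where
  acc j s l u := match l with
    | [] => false
    | e :: l' => decide (elig M j s (u e) ∧
        M.Indep (insert e (greedy M (fun e' => elig M j s (u e')) l') : Finset E))

lemma accepted_eq (m : ℕ) (j : Fin (m + 1)) (s v : E → ℝ≥0) (l : List E) :
    (threshRule M m).accepted j s v l = greedy M (fun e => elig M j s (v e)) l := by
  induction l with
  | nil => simp [Rule.accepted, greedy]
  | cons e l ih =>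
    have h1 : mask v (e :: l) e = v e := by simp [mask]
    have h2 : greedy M (fun e' => elig M j s (mask v (e :: l) e')) l
        = greedy M (fun e' => elig M j s (v e')) l := by
      apply greedy_congr
      intro e' he'
      have : mask v (e :: l) e' = v e' := by simp [mask, he']
      rw [this]
    have key : ((threshRule M m).acc j s (e :: l) (mask v (e :: l)) = true) ↔
        (elig M j s (v e) ∧
          M.Indep (insert e (greedy M (fun e => elig M j s (v e)) l) : Finset E)) := by
      simp only [threshRule, decide_eq_true_eq]
      rw [h1, h2]
    unfold Rule.accepted greedy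
    rw [ih]
    by_cases hk : (elig M j s (v e) ∧
          M.Indep (insert e (greedy M (fun e => elig M j s (v e)) l) : Finset E))
    · rw [if_pos (key.mpr hk), if_pos hk]
    · rw [if_neg (fun h => hk (key.mp h)), if_neg hk]

lemma threshRule_feasible (m : ℕ) : (threshRule M m).Feasible M := by
  intro r s v l
  rw [accepted_eq]
  exact greedy_indep M _ l

omit [DecidableEq E] in
/-- a function of finitely many measurable predicates is measurable. -/
lemma measurable_of_finite_pred {α β : Type*} [MeasurableSpace α] [MeasurableSpace β]
    (P : α → E → Prop) (hP : ∀ e, MeasurableSet {a | P a e}) (h : (E → Prop) → β) :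
    Measurable (fun a => h (P a)) := by
  classical
  intro t _
  have : (fun a => h (P a)) ⁻¹' t = ⋃ p ∈ {p : E → Prop | h p ∈ t}, {a | P a = p} := by
    ext a
    simp
  rw [this]
  apply MeasurableSet.biUnion (Set.to_countable _)
  intro p _
  have : {a | P a = p} = ⋂ e, {a | P a e ↔ p e} := by
    ext a
    simp only [Set.mem_ofPred_eq, Set.mem_iInter]
    constructor
    · intro h e; rw [h]
    · intro h; funext e; exact propext (h e)
  rw [this]
  apply MeasurableSet.iInter
  intro e
  by_cases hpe : p e
  · have : {a | P a e ↔ p e} = {a | P a e} := by ext a; simp [hpe]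
    rw [this]; exact hP e
  · have : {a | P a e ↔ p e} = {a | P a e}ᶜ := by ext a; simp [hpe]
    rw [this]; exact (hP e).compl

omit [DecidableEq E] in
lemma measurable_topS : Measurable (topS M) := by
  unfold topS
  have : ∀ t : Finset E, Measurable (fun s : E → ℝ≥0 => t.sup s) := by
    intro t
    classical
    induction t using Finset.induction_on with
    | empty => simp
    | insert a t _ ih =>
      simp only [Finset.sup_insert]
      exact (measurable_pi_apply a).sup ih
  exact this _

omit [DecidableEq E] in
lemma measurableSet_elig {α : Type*} [MeasurableSpace α] (j : ℕ) (f : α → (E → ℝ≥0))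
    (g : α → ℝ≥0) (hf : Measurable f) (hg : Measurable g) :
    MeasurableSet {a | elig M j (f a) (g a)} := by
  unfold elig
  by_cases hj : j = 0
  · simp only [hj, if_true]
    exact measurableSet_lt ((measurable_topS M).comp hf) hg
  · simp only [hj, if_false]
    exact measurableSet_le (((measurable_topS M).comp hf).div_const _) hg

lemma threshRule_measurable (m : ℕ) : (threshRule M m).IsMeasurable := by
  classical
  intro l
  apply measurable_from_prod_countable_right
  intro j
  cases l with
  | nil => simp [threshRule]
  | cons e l' =>
    simp only [threshRule]
    exact measurable_of_finite_pred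
      (fun (y : (E → ℝ≥0) × (E → ℝ≥0)) e' => elig M j y.1 (y.2 e'))
      (fun e' => measurableSet_elig M j _ _ measurable_fst
        ((measurable_pi_apply e').comp measurable_snd))
      (fun p => decide (p e ∧ M.Indep (insert e (greedy M p l') : Finset E)))

end Vale.Agent.P331
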